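import Vale.Agent.Lib.P108.Main

namespace Vale.Agent.Results.P108.StdMapTopEntropy

open Vale.Agent.Lib.P108

/-- The standard map `f_k (x, y) = (x + y + k sin (2 π x), y + k sin (2 π x))` on the torus has
topological entropy at least `(log 2) / 3` for every `k` with `3/5 ≤ k ≤ 13/20`; in particular
this holds at the parameter `k = 2 / π`, where the topological entropy is therefore positive. -/
theorem result :
    (∀ k : ℝ, 3 / 5 ≤ k → k ≤ 13 / 20 →
      ((Real.log 2 / 3 : ℝ) : EReal) ≤ Dynamics.coverEntropy (stdMap k) Set.univ) ∧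
    ((Real.log 2 / 3 : ℝ) : EReal) ≤ Dynamics.coverEntropy (stdMap (2 / Real.pi)) Set.univ ∧
    (0 : EReal) < Dynamics.coverEntropy (stdMap (2 / Real.pi)) Set.univ := by
  have h1 : ((Real.log 2 / 3 : ℝ) : EReal)
      ≤ Dynamics.coverEntropy (stdMap (2 / Real.pi)) Set.univ :=
    stdMap_entropy (2 / Real.pi) two_div_pi_mem.1 two_div_pi_mem.2
  refine ⟨stdMap_entropy, h1, lt_of_lt_of_le ?_ h1⟩
  have h2 : (0 : ℝ) < Real.log 2 / 3 := div_pos (Real.log_pos (by norm_num)) (by norm_num)
  exact_mod_cast h2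

end Vale.Agent.Results.P108.StdMapTopEntropy
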